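import Mathlib
import Vale.Agent.H96.P171.Defs
import Vale.Agent.H96.P171.Energy.Basic
import Vale.Agent.H79.LP.Cells

/-!
# P171 moonshot, LP part: the pointwise inequality (H2) for ordered pairs

For `n ≥ 4`, cell side `l = rho n`, the `l^3` integer shifts `a` and any finite family of
points `x : Fin N → E3`: the pair energy of `Phi (addAt t n σ)` over all ordered pairs `i ≠ j`,
times `l^3`, dominates the sum over the shifts of the pair energies of `Phi (tpp t n)` over the
ordered pairs sharing a cell of the shifted grid, minus `2 s / l^3` times the sums of squares of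
the occupation numbers.  No injectivity and no box are needed.
-/

open Classical
open scoped BigOperators

namespace Vale.Agent.H69.P171

open Vale.Agent.H96.P171
open Vale.Agent.H79.LP (sameCell shift sameCount shift_count near_count)

/-- `pi_n = ((l - r - 1) / l)^3` with `l = rho n`, `r = 4 rho (n-1) + 2`. -/
noncomputable def piN (n : ℕ) : ℝ :=
  ((((rho n - (4 * rho (n - 1) + 2) - 1 : ℕ)) : ℝ) / (rho n : ℝ)) ^ 3

/-- `t''_n`: the coordinates `k < n` of `t` divided by `pi_n`, zero beyond. -/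
noncomputable def tpp (t : ℕ → ℝ) (n : ℕ) : ℕ → ℝ := fun k => if k < n then t k / piN n else 0

/-- `s = (21/2) (σ + ∑_{k ≥ n} t_k)`. -/
noncomputable def sN (t : ℕ → ℝ) (n : ℕ) (σ : ℝ) : ℝ := (21 / 2) * (σ + ∑' k, t (k + n))

theorem lp1_rho_pos (n : ℕ) : 0 < rho n := Nat.factorial_pos _

theorem lp1_rho_mono {a b : ℕ} (h : a ≤ b) : rho a ≤ rho b :=
  Nat.factorial_le (by omega)

/-- `r + 1 < l` for `n ≥ 4`. -/
theorem lp1_r_lt (n : ℕ) (hn : 4 ≤ n) : 4 * rho (n - 1) + 2 + 1 < rho n := by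
  obtain ⟨m, rfl⟩ : ∃ m, n = m + 1 := ⟨n - 1, by omega⟩
  have h24 : 24 ≤ (m + 1).factorial := by
    have : (4 : ℕ).factorial ≤ (m + 1).factorial := Nat.factorial_le (by omega)
    simpa [Nat.factorial] using this
  have e1 : rho (m + 1 - 1) = (m + 1).factorial := by
    simp [rho]
  have e2 : rho (m + 1) = (m + 2) * (m + 1).factorial := by
    simp [rho, Nat.factorial_succ]
  rw [e1, e2]
  have h5 : 5 * (m + 1).factorial ≤ (m + 2) * (m + 1).factorial :=
    Nat.mul_le_mul_right _ (by omega)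
  generalize (m + 2) * (m + 1).factorial = q at h5
  generalize (m + 1).factorial = f at h24 h5
  omega

theorem lp1_Rn_le (n k : ℕ) (hk : k < n) : Rn k ≤ ((4 * rho (n - 1) + 2 : ℕ) : ℝ) := by
  have h : rho k ≤ rho (n - 1) := lp1_rho_mono (by omega)
  have h' : (rho k : ℝ) ≤ (rho (n - 1) : ℝ) := by exact_mod_cast h
  unfold Rn
  push_cast
  linarith

theorem lp1_four_le (n k : ℕ) (hk : n ≤ k) : 4 * (rho n : ℝ) ≤ Rn k := by
  have h : rho n ≤ rho k := lp1_rho_mono hk
  have h' : (rho n : ℝ) ≤ (rho k : ℝ) := by exact_mod_cast h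
  unfold Rn
  linarith

theorem lp1_coord (a b : E3) (c : Fin 3) : |a c - b c| ≤ dist a b := by
  have h := PiLp.norm_apply_le (a - b) c
  rw [dist_eq_norm]
  simpa [Real.norm_eq_abs] using h

theorem lp1_piN_pos (n : ℕ) (hn : 4 ≤ n) : 0 < piN n := by
  have h := lp1_r_lt n hn
  have hl : (0 : ℝ) < (rho n : ℝ) := by exact_mod_cast lp1_rho_pos n
  have hnum : (0 : ℝ) < (((rho n - (4 * rho (n - 1) + 2) - 1 : ℕ)) : ℝ) := by
    have : 0 < rho n - (4 * rho (n - 1) + 2) - 1 := by omega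
    exact_mod_cast this
  unfold piN
  positivity

theorem lp1_piN_mul (n : ℕ) :
    piN n * (rho n : ℝ) ^ 3 = ((((rho n - (4 * rho (n - 1) + 2) - 1 : ℕ)) : ℝ)) ^ 3 := by
  have hl : (rho n : ℝ) ≠ 0 := by
    have : (0 : ℝ) < (rho n : ℝ) := by exact_mod_cast lp1_rho_pos n
    exact this.ne'
  unfold piN
  rw [div_pow, div_mul_cancel₀ _ (pow_ne_zero 3 hl)]

/-- The potential with one more bump. -/
theorem lp1_Phi_addAt (t : ℕ → ℝ) (ht : Adm t) (n : ℕ) (σ r : ℝ) :
    Phi (addAt t n σ) r = phi0 r - (∑ k ∈ Finset.range n, t k * bump k r)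
      - (∑' k, t (k + n) * bump (k + n) r) - σ * bump n r := by
  have hs := summable_t_bump t ht r
  have hs2 : Summable fun k => (if k = n then σ else 0) * bump k r := by
    apply summable_of_ne_finset_zero (s := {n})
    intro k hk
    rw [Finset.mem_singleton] at hk
    simp [hk]
  have e1 : (∑' k, addAt t n σ k * bump k r) =
      (∑' k, t k * bump k r) + ∑' k, (if k = n then σ else 0) * bump k r := by
    rw [← hs.tsum_add hs2]
    congr 1
    funext k
    unfold addAt
    ring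
  have e2 : (∑' k, (if k = n then σ else 0) * bump k r) = σ * bump n r := by
    rw [tsum_eq_single n]
    · simp
    · intro k hk
      simp [hk]
  have e3 : (∑' k, t k * bump k r) =
      (∑ k ∈ Finset.range n, t k * bump k r) + ∑' k, t (k + n) * bump (k + n) r :=
    (hs.sum_add_tsum_nat_add n).symm
  unfold Phi
  rw [e1, e2, e3]
  ring

/-- The potential of the truncated and rescaled parameters. -/
theorem lp1_Phi_tpp (t : ℕ → ℝ) (n : ℕ) (r : ℝ) :
    Phi (tpp t n) r = phi0 r - (∑ k ∈ Finset.range n, t k * bump k r) / piN n := by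
  have e : (∑' k, tpp t n k * bump k r) = ∑ k ∈ Finset.range n, tpp t n k * bump k r := by
    apply tsum_eq_sum
    intro k hk
    rw [Finset.mem_range] at hk
    simp [tpp, hk]
  unfold Phi
  rw [e, Finset.sum_div]
  congr 1
  apply Finset.sum_congr rfl
  intro k hk
  rw [Finset.mem_range] at hk
  simp only [tpp, hk, if_true]
  ring

/-- The inequality for one ordered pair: core and short bumps. -/
theorem lp1_pair (t : ℕ → ℝ) (ht : Adm t) (n : ℕ) (hn : 4 ≤ n) (p q : E3) :
    (((Finset.univ.filter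
        (fun a : Fin 3 → Fin (rho n) => sameCell (rho n) (shift (rho n) a) p q)).card : ℕ) : ℝ) *
        (phi0 (dist p q) - (∑ k ∈ Finset.range n, t k * bump k (dist p q)) / piN n) ≤
      (rho n : ℝ) ^ 3 * (phi0 (dist p q) - ∑ k ∈ Finset.range n, t k * bump k (dist p q)) := by
  set d := dist p q with hd
  set M : ℝ := (((Finset.univ.filter
    (fun a : Fin 3 → Fin (rho n) => sameCell (rho n) (shift (rho n) a) p q)).card : ℕ) : ℝ) with hM
  set S1 := ∑ k ∈ Finset.range n, t k * bump k d with hS1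
  have hpi := lp1_piN_pos n hn
  have hM0 : 0 ≤ M := Nat.cast_nonneg _
  have hMle : M ≤ (rho n : ℝ) ^ 3 := by
    have h1 : (Finset.univ.filter
        (fun a : Fin 3 → Fin (rho n) => sameCell (rho n) (shift (rho n) a) p q)).card ≤
        (rho n) ^ 3 := by
      refine (Finset.card_filter_le _ _).trans ?_
      simp
    have h2 : ((((Finset.univ.filter
        (fun a : Fin 3 → Fin (rho n) => sameCell (rho n) (shift (rho n) a) p q)).card : ℕ)) : ℝ) ≤
        (((rho n) ^ 3 : ℕ) : ℝ) := by exact_mod_cast h1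
    rw [hM]
    refine h2.trans ?_
    push_cast
    exact le_refl _
  have hphi : 0 ≤ phi0 d := phi0_nonneg d
  have hS1nn : 0 ≤ S1 := Finset.sum_nonneg fun k _ => mul_nonneg (ht.1 k) (bump_nonneg k d)
  by_cases hdr : d ≤ ((4 * rho (n - 1) + 2 : ℕ) : ℝ)
  · have hcount := shift_count (rho n) (4 * rho (n - 1) + 2) (lp1_r_lt n hn) p q
      (fun i => (lp1_coord p q i).trans hdr)
    have hcount' : ((((rho n - (4 * rho (n - 1) + 2) - 1 : ℕ)) : ℝ)) ^ 3 ≤ M := by
      rw [hM]
      exact_mod_cast hcount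
    rw [← lp1_piN_mul n] at hcount'
    have h1 : (rho n : ℝ) ^ 3 ≤ M / piN n := by
      rw [le_div_iff₀ hpi]
      linarith
    have e : (rho n : ℝ) ^ 3 * (phi0 d - S1) - M * (phi0 d - S1 / piN n) =
        ((rho n : ℝ) ^ 3 - M) * phi0 d + S1 * (M / piN n - (rho n : ℝ) ^ 3) := by
      field_simp
      ring
    have h2 : 0 ≤ ((rho n : ℝ) ^ 3 - M) * phi0 d := mul_nonneg (by linarith) hphi
    have h3 : 0 ≤ S1 * (M / piN n - (rho n : ℝ) ^ 3) := mul_nonneg hS1nn (by linarith)
    linarith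
  · have hS1z : S1 = 0 := by
      rw [hS1]
      apply Finset.sum_eq_zero
      intro k hk
      rw [Finset.mem_range] at hk
      have hR := lp1_Rn_le n k hk
      have : ¬ d < Rn k := by
        rw [not_lt]
        rw [not_le] at hdr
        linarith
      simp [bump, this]
    rw [hS1z]
    simp only [zero_div, sub_zero]
    exact mul_le_mul_of_nonneg_right hMle hphi

/-- The long bumps, one grid. -/
theorem lp1_bump_grid (n k : ℕ) (hk : n ≤ k) (N : ℕ) (x : Fin N → E3) (a : Fin 3 → Fin (rho n)) :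
    (∑ p ∈ Finset.univ.filter (fun p : Fin N × Fin N => p.1 ≠ p.2),
        bump k (dist (x p.1) (x p.2))) ≤
      21 / (rho n : ℝ) ^ 3 * (sameCount (rho n) (shift (rho n) a) x : ℝ) := by
  have hl : (0 : ℝ) < (rho n : ℝ) := by exact_mod_cast lp1_rho_pos n
  have hR : 4 * (rho n : ℝ) ≤ Rn k := lp1_four_le n k hk
  have hRpos : 0 < Rn k := by linarith
  have hnear := near_count (rho n) (lp1_rho_pos n) (shift (rho n) a) (Rn k) hR x
  have e : (∑ p ∈ Finset.univ.filter (fun p : Fin N × Fin N => p.1 ≠ p.2),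
        bump k (dist (x p.1) (x p.2))) =
      ((Finset.univ.filter
        (fun p : Fin N × Fin N => p.1 ≠ p.2 ∧ dist (x p.1) (x p.2) < Rn k)).card : ℝ) *
        ((Rn k)⁻¹) ^ 3 := by
    unfold bump
    rw [← Finset.sum_filter, Finset.filter_filter, Finset.sum_const, nsmul_eq_mul]
  rw [e]
  have h3 : (0 : ℝ) ≤ ((Rn k)⁻¹) ^ 3 := by positivity
  refine (mul_le_mul_of_nonneg_right hnear h3).trans (le_of_eq ?_)
  field_simp

/-- The long bumps, averaged over the grids. -/
theorem lp1_bump_avg (n k : ℕ) (hk : n ≤ k) (N : ℕ) (x : Fin N → E3) :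
    (rho n : ℝ) ^ 3 * (∑ p ∈ Finset.univ.filter (fun p : Fin N × Fin N => p.1 ≠ p.2),
        bump k (dist (x p.1) (x p.2))) ≤
      21 / (rho n : ℝ) ^ 3 *
        ∑ a : Fin 3 → Fin (rho n), (sameCount (rho n) (shift (rho n) a) x : ℝ) := by
  have h := Finset.sum_le_sum (s := (Finset.univ : Finset (Fin 3 → Fin (rho n))))
    (fun a _ => lp1_bump_grid n k hk N x a)
  rw [Finset.sum_const, ← Finset.mul_sum, nsmul_eq_mul, Finset.card_univ] at h
  have hc : ((Fintype.card (Fin 3 → Fin (rho n)) : ℕ) : ℝ) = (rho n : ℝ) ^ 3 := by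
    simp
  rw [hc] at h
  exact h

/-- **(H2), energy form.** -/
theorem lp1_energy (t : ℕ → ℝ) (ht : Adm t) (σ : ℝ) (hσ : 0 ≤ σ) (n : ℕ) (hn : 4 ≤ n)
    (N : ℕ) (x : Fin N → E3) :
    (∑ a : Fin 3 → Fin (rho n),
        ((∑ p ∈ Finset.univ.filter (fun p : Fin N × Fin N =>
            p.1 ≠ p.2 ∧ sameCell (rho n) (shift (rho n) a) (x p.1) (x p.2)),
            Phi (tpp t n) (dist (x p.1) (x p.2)))
          - 2 * sN t n σ / (rho n : ℝ) ^ 3 * (sameCount (rho n) (shift (rho n) a) x : ℝ))) ≤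
      (rho n : ℝ) ^ 3 * ∑ p ∈ Finset.univ.filter (fun p : Fin N × Fin N => p.1 ≠ p.2),
        Phi (addAt t n σ) (dist (x p.1) (x p.2)) := by
  set P := Finset.univ.filter (fun p : Fin N × Fin N => p.1 ≠ p.2) with hP
  set SC := ∑ a : Fin 3 → Fin (rho n), (sameCount (rho n) (shift (rho n) a) x : ℝ) with hSC
  have hl : (0 : ℝ) < (rho n : ℝ) := by exact_mod_cast lp1_rho_pos n
  have hSC0 : 0 ≤ SC := Finset.sum_nonneg fun a _ => Nat.cast_nonneg _
  -- the left side, rewritten as a sum over the ordered pairs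
  have hleft : (∑ a : Fin 3 → Fin (rho n),
        ((∑ p ∈ Finset.univ.filter (fun p : Fin N × Fin N =>
            p.1 ≠ p.2 ∧ sameCell (rho n) (shift (rho n) a) (x p.1) (x p.2)),
            Phi (tpp t n) (dist (x p.1) (x p.2)))
          - 2 * sN t n σ / (rho n : ℝ) ^ 3 * (sameCount (rho n) (shift (rho n) a) x : ℝ))) =
      (∑ p ∈ P, (((Finset.univ.filter (fun a : Fin 3 → Fin (rho n) =>
          sameCell (rho n) (shift (rho n) a) (x p.1) (x p.2))).card : ℕ) : ℝ) *
          Phi (tpp t n) (dist (x p.1) (x p.2))) - 2 * sN t n σ / (rho n : ℝ) ^ 3 * SC := by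
    rw [Finset.sum_sub_distrib, ← Finset.mul_sum]
    congr 1
    have e1 : ∀ a : Fin 3 → Fin (rho n),
        (∑ p ∈ Finset.univ.filter (fun p : Fin N × Fin N =>
            p.1 ≠ p.2 ∧ sameCell (rho n) (shift (rho n) a) (x p.1) (x p.2)),
            Phi (tpp t n) (dist (x p.1) (x p.2))) =
        ∑ p ∈ P, if sameCell (rho n) (shift (rho n) a) (x p.1) (x p.2) then
          Phi (tpp t n) (dist (x p.1) (x p.2)) else 0 := by
      intro a
      rw [← Finset.sum_filter, hP, Finset.filter_filter]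
    rw [Finset.sum_congr rfl (fun a _ => e1 a), Finset.sum_comm]
    apply Finset.sum_congr rfl
    intro p _
    rw [← Finset.sum_filter, Finset.sum_const, nsmul_eq_mul]
  rw [hleft]
  -- the pairwise part
  have hpair : (∑ p ∈ P, (((Finset.univ.filter (fun a : Fin 3 → Fin (rho n) =>
          sameCell (rho n) (shift (rho n) a) (x p.1) (x p.2))).card : ℕ) : ℝ) *
          Phi (tpp t n) (dist (x p.1) (x p.2))) ≤
      ∑ p ∈ P, (rho n : ℝ) ^ 3 * (phi0 (dist (x p.1) (x p.2)) -
        ∑ k ∈ Finset.range n, t k * bump k (dist (x p.1) (x p.2))) := by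
    apply Finset.sum_le_sum
    intro p _
    rw [lp1_Phi_tpp]
    exact lp1_pair t ht n hn (x p.1) (x p.2)
  -- the long bumps
  have hτ0 : 0 ≤ ∑' k, t (k + n) := tsum_nonneg fun k => ht.1 _
  have hsumm : Summable fun k => t (k + n) := (summable_nat_add_iff n).2 ht.2
  have hσpart : (rho n : ℝ) ^ 3 * ∑ p ∈ P, σ * bump n (dist (x p.1) (x p.2)) ≤
      σ * (21 / (rho n : ℝ) ^ 3 * SC) := by
    rw [← Finset.mul_sum, mul_left_comm]
    exact mul_le_mul_of_nonneg_left (lp1_bump_avg n n le_rfl N x) hσ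
  have hS2 : (rho n : ℝ) ^ 3 *
      ∑ p ∈ P, ∑' k, t (k + n) * bump (k + n) (dist (x p.1) (x p.2)) ≤
      (∑' k, t (k + n)) * (21 / (rho n : ℝ) ^ 3 * SC) := by
    have hsw : (∑ p ∈ P, ∑' k, t (k + n) * bump (k + n) (dist (x p.1) (x p.2))) =
        ∑' k, ∑ p ∈ P, t (k + n) * bump (k + n) (dist (x p.1) (x p.2)) := by
      rw [Summable.tsum_finsetSum]
      intro p _
      exact (summable_nat_add_iff n).2 (summable_t_bump t ht _)
    rw [hsw, ← tsum_mul_left, ← tsum_mul_right]
    have hterm : ∀ k, (rho n : ℝ) ^ 3 *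
        ∑ p ∈ P, t (k + n) * bump (k + n) (dist (x p.1) (x p.2)) ≤
        t (k + n) * (21 / (rho n : ℝ) ^ 3 * SC) := by
      intro k
      rw [← Finset.mul_sum, mul_left_comm]
      exact mul_le_mul_of_nonneg_left (lp1_bump_avg n (k + n) (by omega) N x) (ht.1 _)
    have hsR : Summable fun k => t (k + n) * (21 / (rho n : ℝ) ^ 3 * SC) :=
      hsumm.mul_right _
    have hsL : Summable fun k => (rho n : ℝ) ^ 3 *
        ∑ p ∈ P, t (k + n) * bump (k + n) (dist (x p.1) (x p.2)) := by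
      refine Summable.of_nonneg_of_le (fun k => ?_) hterm hsR
      exact mul_nonneg (by positivity)
        (Finset.sum_nonneg fun p _ => mul_nonneg (ht.1 _) (bump_nonneg _ _))
    exact hsL.tsum_le_tsum hterm hsR
  -- assemble
  have hright : (rho n : ℝ) ^ 3 * ∑ p ∈ P, Phi (addAt t n σ) (dist (x p.1) (x p.2)) =
      (∑ p ∈ P, (rho n : ℝ) ^ 3 * (phi0 (dist (x p.1) (x p.2)) -
        ∑ k ∈ Finset.range n, t k * bump k (dist (x p.1) (x p.2))))
      - (rho n : ℝ) ^ 3 * (∑ p ∈ P, ∑' k, t (k + n) * bump (k + n) (dist (x p.1) (x p.2)))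
      - (rho n : ℝ) ^ 3 * ∑ p ∈ P, σ * bump n (dist (x p.1) (x p.2)) := by
    rw [← Finset.mul_sum, ← mul_sub, ← mul_sub, ← Finset.sum_sub_distrib,
      ← Finset.sum_sub_distrib]
    congr 1
    apply Finset.sum_congr rfl
    intro p _
    rw [lp1_Phi_addAt t ht]
  rw [hright]
  have hs : 2 * sN t n σ / (rho n : ℝ) ^ 3 * SC =
      σ * (21 / (rho n : ℝ) ^ 3 * SC) + (∑' k, t (k + n)) * (21 / (rho n : ℝ) ^ 3 * SC) := by
    unfold sN
    ring
  rw [hs]
  linarith

end Vale.Agent.H69.P171
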